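import Mathlib

/-! P208: wedge gluing of bi-Lipschitz embeddings. -/

namespace Vale.Agent.P208

open Metric Finset

/-- every closed ball of `X` is covered by at most `N` closed balls of half its radius -/
def Doubling (N : ℕ) (X : Type*) [MetricSpace X] : Prop :=
  ∀ (x : X) (r : ℝ), 0 < r → ∃ T : Finset X, T.card ≤ N ∧
    closedBall x r ⊆ ⋃ t ∈ T, closedBall t (r / 2)

/-- `X` admits a bi-Lipschitz embedding into Euclidean `ℝ^k` with distortion at most `D` -/
def Embeds (k : ℕ) (D : ℝ) (X : Type*) [MetricSpace X] : Prop :=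
  ∃ (f : X → EuclideanSpace ℝ (Fin k)) (a : ℝ), 0 < a ∧
    ∀ x y : X, a * dist x y ≤ ‖f x - f y‖ ∧ ‖f x - f y‖ ≤ D * a * dist x y

lemma doubling_iter {N : ℕ} {X : Type*} [MetricSpace X] (h : Doubling N X) (m : ℕ) :
    ∀ (x : X) (r : ℝ), 0 < r → ∃ T : Finset X, T.card ≤ N ^ m ∧
      closedBall x r ⊆ ⋃ t ∈ T, closedBall t (r / 2 ^ m) := by
  classical
  induction m with
  | zero =>
    intro x r hr
    refine ⟨{x}, by simp, by simp⟩
  | succ m ih =>
    intro x r hr
    obtain ⟨T, hT, hc⟩ := ih x r hr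
    have hr' : 0 < r / 2 ^ m := by positivity
    choose S hS hSc using fun t : X => h t (r / 2 ^ m) hr'
    refine ⟨T.biUnion S, ?_, ?_⟩
    · calc (T.biUnion S).card ≤ ∑ t ∈ T, (S t).card := card_biUnion_le
        _ ≤ ∑ _t ∈ T, N := sum_le_sum fun t _ => hS t
        _ = T.card * N := by simp
        _ ≤ N ^ m * N := Nat.mul_le_mul_right _ hT
        _ = N ^ (m + 1) := (pow_succ _ _).symm
    · intro y hy
      have h1 := hc hy
      simp only [Set.mem_iUnion] at h1
      obtain ⟨t, ht, hyt⟩ := h1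
      have h2 := hSc t hyt
      simp only [Set.mem_iUnion] at h2 ⊢
      obtain ⟨s, hs, hys⟩ := h2
      refine ⟨s, mem_biUnion.2 ⟨t, ht, hs⟩, ?_⟩
      have : r / 2 ^ m / 2 = r / 2 ^ (m + 1) := by rw [pow_succ]; field_simp
      rwa [this] at hys

/-- two-sided recursion -/
lemma exists_twoSided {α : Type*} (P : ℤ → α → Prop) (R : ℤ → α → α → Prop)
    (h0 : ∃ a, P 0 a)
    (hf : ∀ n a, P n a → ∃ b, P (n + 1) b ∧ R n a b)
    (hb : ∀ n b, P (n + 1) b → ∃ a, P n a ∧ R n a b) :
    ∃ g : ℤ → α, (∀ n, P n (g n)) ∧ ∀ n, R n (g n) (g (n + 1)) := by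
  classical
  choose! F hF1 hF2 using hf
  choose! B hB1 hB2 using hb
  obtain ⟨a0, ha0⟩ := h0
  let u : ℕ → α := fun n => Nat.rec a0 (fun k x => F (k : ℤ) x) n
  let w : ℕ → α := fun n => Nat.rec a0 (fun k x => B (-((k : ℤ) + 1)) x) n
  have hu0 : u 0 = a0 := rfl
  have hw0 : w 0 = a0 := rfl
  have hus : ∀ k, u (k + 1) = F (k : ℤ) (u k) := fun k => rfl
  have hws : ∀ k, w (k + 1) = B (-((k : ℤ) + 1)) (w k) := fun k => rfl
  have hu : ∀ n : ℕ, P (n : ℤ) (u n) := by
    intro n
    induction n with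
    | zero => simpa [hu0] using ha0
    | succ k ih => rw [hus]; push_cast; exact hF1 _ _ ih
  have hw : ∀ n : ℕ, P (-(n : ℤ)) (w n) := by
    intro n
    induction n with
    | zero => simpa [hw0] using ha0
    | succ k ih =>
      rw [hws]
      have : P (-((k : ℤ) + 1) + 1) (w k) := by
        have e : (-((k : ℤ) + 1) + 1) = -(k : ℤ) := by ring
        rw [e]; exact ih
      have := hB1 _ _ this
      push_cast
      exact this
  let g : ℤ → α := fun n => if 0 ≤ n then u n.toNat else w (-n).toNat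
  have hgn : ∀ k : ℕ, g (k : ℤ) = u k := by
    intro k
    simp [g]
  have hgm : ∀ k : ℕ, g (-(k : ℤ)) = w k := by
    intro k
    rcases Nat.eq_zero_or_pos k with rfl | hk
    · simp [g, hu0, hw0]
    · have : ¬ (0 : ℤ) ≤ -(k : ℤ) := by omega
      simp only [g, this, if_false]
      congr 1
      omega
  refine ⟨g, ?_, ?_⟩
  · intro n
    rcases Int.eq_nat_or_neg n with ⟨k, rfl | rfl⟩
    · rw [hgn]; exact hu k
    · rw [hgm]; exact hw k
  · intro n
    rcases le_or_gt 0 n with hn | hn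
    · obtain ⟨k, rfl⟩ := Int.eq_ofNat_of_zero_le hn
      have e1 : ((k : ℤ) + 1) = ((k + 1 : ℕ) : ℤ) := by push_cast; ring
      rw [e1, hgn, hgn, hus]
      exact hF2 _ _ (hu k)
    · obtain ⟨k, hk⟩ : ∃ k : ℕ, n = -((k : ℤ) + 1) := ⟨(-n - 1).toNat, by omega⟩
      subst hk
      have e1 : (-((k : ℤ) + 1)) = -((k + 1 : ℕ) : ℤ) := by push_cast; ring
      have e2 : (-((k : ℤ) + 1) + 1) = -(k : ℤ) := by ring
      rw [e2, hgm]
      have h3 : g (-((k : ℤ) + 1)) = w (k + 1) := by rw [e1, hgm]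
      rw [h3, hws]
      refine hB2 _ _ ?_
      rw [e2]
      exact hw k

/-- extension of an injective colouring -/
lemma exists_color {ι : Type*} {K : ℕ} (A B : Finset ι) (hB : B.card ≤ K) (g : ι → Fin K)
    (hg : Set.InjOn g A) : ∃ g' : ι → Fin K, Set.InjOn g' B ∧ ∀ i ∈ A, i ∈ B → g' i = g i := by
  classical
  have h1 : ((A ∩ B).image g).card = (A ∩ B).card :=
    card_image_of_injOn (hg.mono (by intro x hx; simp at hx; exact hx.1))
  have h2 : (B \ A).card ≤ (univ \ (A ∩ B).image g : Finset (Fin K)).card := by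
    rw [card_sdiff_of_subset (subset_univ _), h1, card_univ, Fintype.card_fin]
    have := card_sdiff_add_card_inter B A
    rw [inter_comm B A] at this
    omega
  obtain ⟨φ, hφ1, hφ2⟩ : ∃ φ : ι → Fin K, (∀ i ∈ B \ A, φ i ∈ (univ \ (A ∩ B).image g : Finset (Fin K))) ∧
      Set.InjOn φ (B \ A : Finset ι) := by
    rcases (B \ A).eq_empty_or_nonempty with he | hne
    · rw [he]
      exact ⟨g, by simp, by simp⟩
    · obtain ⟨e⟩ : Nonempty ((B \ A : Finset ι) ↪ (univ \ (A ∩ B).image g : Finset (Fin K))) := by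
        rw [Function.Embedding.nonempty_iff_card_le, Fintype.card_coe, Fintype.card_coe]
        exact h2
      obtain ⟨i0, hi0⟩ := hne
      refine ⟨fun i => if h : i ∈ B \ A then (e ⟨i, h⟩ : Fin K) else g i, ?_, ?_⟩
      · intro i hi
        simp only [hi, dif_pos]
        exact (e ⟨i, hi⟩).2
      · intro i hi j hj hij
        have hi' : i ∈ B \ A := hi
        have hj' : j ∈ B \ A := hj
        simp only [hi', hj', dif_pos] at hij
        have := e.injective (Subtype.ext hij)
        exact congrArg Subtype.val this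
  refine ⟨fun i => if i ∈ A then g i else φ i, ?_, ?_⟩
  · intro i hi j hj hij
    have hi' : i ∈ B := hi
    have hj' : j ∈ B := hj
    by_cases h3 : i ∈ A <;> by_cases h4 : j ∈ A
    · simp only [h3, h4, if_true] at hij
      exact hg h3 h4 hij
    · simp only [h3, h4, if_true, if_false] at hij
      have := hφ1 j (mem_sdiff.2 ⟨hj', h4⟩)
      rw [mem_sdiff] at this
      exact absurd (mem_image.2 ⟨i, mem_inter.2 ⟨h3, hi'⟩, hij⟩) this.2
    · simp only [h3, h4, if_true, if_false] at hij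
      have := hφ1 i (mem_sdiff.2 ⟨hi', h3⟩)
      rw [mem_sdiff] at this
      exact absurd (mem_image.2 ⟨j, mem_inter.2 ⟨h4, hj'⟩, hij.symm⟩) this.2
    · simp only [h3, h4, if_false] at hij
      exact hφ2 (by simp [hi', h3]) (by simp [hj', h4]) hij
  · intro i hi _
    simp [hi]

end Vale.Agent.P208
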