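import Mathlib
import Vale.Agent.P208.Basic

/-! P208: the core gluing lemma. -/

namespace Vale.Agent.P208

open Metric Finset

/-- put a vector into the slot `s` -/
noncomputable def slotEmb {K k : ℕ} (s : Fin K) (a : EuclideanSpace ℝ (Fin k)) :
    EuclideanSpace ℝ (Fin K × Fin k) :=
  WithLp.toLp 2 fun p => if p.1 = s then a p.2 else 0

lemma slotEmb_norm_sq {K k : ℕ} (s : Fin K) (a : EuclideanSpace ℝ (Fin k)) :
    ‖slotEmb s a‖ ^ 2 = ‖a‖ ^ 2 := by
  rw [EuclideanSpace.norm_sq_eq, EuclideanSpace.norm_sq_eq, Fintype.sum_prod_type]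
  rw [Finset.sum_eq_single s]
  · simp [slotEmb]
  · intro t _ ht
    simp [slotEmb, ht]
  · simp

lemma slotEmb_norm {K k : ℕ} (s : Fin K) (a : EuclideanSpace ℝ (Fin k)) :
    ‖slotEmb s a‖ = ‖a‖ := by
  have h := slotEmb_norm_sq s a
  exact (sq_eq_sq₀ (norm_nonneg _) (norm_nonneg _)).1 h

lemma slotEmb_sub {K k : ℕ} (s : Fin K) (a b : EuclideanSpace ℝ (Fin k)) :
    slotEmb s a - slotEmb s b = slotEmb s (a - b) := by
  ext p
  by_cases h : p.1 = s <;> simp [slotEmb, h]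

lemma slotEmb_ne {K k : ℕ} {s t : Fin K} (h : s ≠ t) (a b : EuclideanSpace ℝ (Fin k)) :
    ‖slotEmb s a - slotEmb t b‖ ^ 2 = ‖a‖ ^ 2 + ‖b‖ ^ 2 := by
  have h1 : inner ℝ (slotEmb s a) (slotEmb t b) = 0 := by
    rw [PiLp.inner_apply]
    refine Finset.sum_eq_zero fun p _ => ?_
    by_cases hp : p.1 = s
    · have : p.1 ≠ t := by rw [hp]; exact h
      simp [slotEmb, hp, h]
    · simp [slotEmb, hp]
  rw [norm_sub_sq_real, h1, slotEmb_norm_sq, slotEmb_norm_sq]
  ring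

/-- few labels per scale -/
lemma labels {X ι : Type*} [MetricSpace X] {N m : ℕ} (hN : Doubling N X) (ρ : X → ℝ)
    (ℓ : X → ι) (c : ℝ) (hm : 8 / (2 : ℝ) ^ m < c)
    (hup : ∀ x y, dist x y ≤ ρ x + ρ y)
    (hsep : ∀ x y, 0 < ρ x → 0 < ρ y → ℓ x ≠ ℓ y → c * max (ρ x) (ρ y) ≤ dist x y) (n : ℤ) :
    ∃ F : Finset ι, F.card ≤ N ^ m ∧ ∀ x, (2 : ℝ) ^ n ≤ ρ x → ρ x < 2 ^ (n + 1) → ℓ x ∈ F := by
  classical
  have h2n : (0 : ℝ) < 2 ^ n := by positivity
  by_cases hex : ∃ x0 : X, (2 : ℝ) ^ n ≤ ρ x0 ∧ ρ x0 < 2 ^ (n + 1)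
  swap
  · refine ⟨∅, by simp, fun x h1 h2 => absurd ⟨x, h1, h2⟩ hex⟩
  obtain ⟨x0, h01, h02⟩ := hex
  obtain ⟨T, hT, hc⟩ := doubling_iter hN m x0 (4 * 2 ^ n) (by positivity)
  set r' : ℝ := 4 * 2 ^ n / 2 ^ m with hr'
  let h : X → ι := fun t =>
    if hx : ∃ x : X, ((2 : ℝ) ^ n ≤ ρ x ∧ ρ x < 2 ^ (n + 1)) ∧ x ∈ closedBall t r' then ℓ hx.choose
    else ℓ x0
  refine ⟨T.image h, card_image_le.trans hT, ?_⟩
  intro x hx1 hx2
  have hz : (2 : ℝ) ^ (n + 1) = 2 * 2 ^ n := by rw [zpow_add₀ (by norm_num)]; ring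
  have hxb : x ∈ closedBall x0 (4 * 2 ^ n) := by
    rw [mem_closedBall]
    have := hup x x0
    rw [hz] at hx2 h02
    linarith
  have h1 := hc hxb
  simp only [Set.mem_iUnion] at h1
  obtain ⟨t, ht, hxt⟩ := h1
  have hex' : ∃ x : X, ((2 : ℝ) ^ n ≤ ρ x ∧ ρ x < 2 ^ (n + 1)) ∧ x ∈ closedBall t r' :=
    ⟨x, ⟨hx1, hx2⟩, hxt⟩
  have hht : h t = ℓ hex'.choose := by simp only [h]; rw [dif_pos hex']
  rw [mem_image]
  refine ⟨t, ht, ?_⟩
  rw [hht]
  by_contra hne
  obtain ⟨⟨hy1, hy2⟩, hyt⟩ := hex'.choose_spec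
  set y := hex'.choose
  have h3 := hsep y x (lt_of_lt_of_le h2n hy1) (lt_of_lt_of_le h2n hx1) hne
  have h4 : dist y x ≤ 2 * r' := by
    have := dist_triangle_right y x t
    rw [mem_closedBall] at hyt hxt
    linarith
  have h5 : 2 * r' = 8 / 2 ^ m * 2 ^ n := by rw [hr']; ring
  have h6 : 8 / (2 : ℝ) ^ m * 2 ^ n < c * 2 ^ n := mul_lt_mul_of_pos_right hm h2n
  have hc0 : 0 < c := lt_trans (by positivity) hm
  have h7 : c * 2 ^ n ≤ c * max (ρ y) (ρ x) := mul_le_mul_of_nonneg_left (hy1.trans (le_max_left _ _)) hc0.le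
  linarith

theorem core (k N : ℕ) (D c : ℝ) (hD : 1 ≤ D) (hc : 0 < c) (hc1 : c ≤ 1) :
    ∃ (K : ℕ) (D' : ℝ), ∀ (X : Type*) [MetricSpace X] (ι : Type*) (ρ : X → ℝ) (ℓ : X → ι)
      (f : X → EuclideanSpace ℝ (Fin k)), Doubling N X → (∀ x, 0 ≤ ρ x) →
      (∀ x y, dist x y ≤ ρ x + ρ y) → (∀ x y, ρ x ≤ dist x y + ρ y) →
      (∀ x, ρ x ≤ ‖f x‖ ∧ ‖f x‖ ≤ D * ρ x) →
      (∀ x y, ℓ x = ℓ y → dist x y ≤ ‖f x - f y‖ ∧ ‖f x - f y‖ ≤ D * dist x y) →
      (∀ x y, 0 < ρ x → 0 < ρ y → ℓ x ≠ ℓ y → c * max (ρ x) (ρ y) ≤ dist x y) →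
      Embeds K D' X := by
  classical
  obtain ⟨L, hL⟩ := pow_unbounded_of_one_lt (2 * D) (one_lt_two : (1 : ℝ) < 2)
  obtain ⟨m, hm'⟩ := pow_unbounded_of_one_lt (8 / c) (one_lt_two : (1 : ℝ) < 2)
  have hm : 8 / (2 : ℝ) ^ m < c := by
    rw [div_lt_iff₀ (by positivity)]
    rw [div_lt_iff₀ hc] at hm'
    linarith
  set K0 : ℕ := (2 * L + 1) * N ^ m + 1 with hK0
  refine ⟨K0 * k, 16 * D / c, ?_⟩
  intro X _ ι ρ ℓ f hN hρ0 hup hlip hf1 hf2 hsep
  choose F hF1 hF2 using fun n : ℤ => labels hN ρ ℓ c hm hup hsep n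
  let W : ℤ → Finset ι := fun n => (Finset.Icc (n - L) (n + L)).biUnion F
  have hW1 : ∀ n, (W n).card ≤ K0 := by
    intro n
    calc (W n).card ≤ ∑ j ∈ Finset.Icc (n - L) (n + L), (F j).card := card_biUnion_le
      _ ≤ ∑ _j ∈ Finset.Icc (n - (L : ℤ)) (n + L), N ^ m := sum_le_sum fun j _ => hF1 j
      _ = (Finset.Icc (n - (L : ℤ)) (n + L)).card * N ^ m := by simp
      _ = (2 * L + 1) * N ^ m := by
        congr 1
        rw [Int.card_Icc]
        omega
      _ ≤ K0 := by omega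
  have hFW : ∀ n n' : ℤ, n - L ≤ n' → n' ≤ n + L → ∀ i ∈ F n', i ∈ W n := by
    intro n n' h1 h2 i hi
    exact mem_biUnion.2 ⟨n', Finset.mem_Icc.2 ⟨h1, h2⟩, hi⟩
  have hK0pos : 0 < K0 := by omega
  obtain ⟨g, hg1, hg2⟩ := exists_twoSided (α := ι → Fin K0)
    (fun n g => Set.InjOn g (W n)) (fun n g g' => ∀ i ∈ W n, i ∈ W (n + 1) → g' i = g i)
    (by
      obtain ⟨g', h1, _⟩ := exists_color (∅ : Finset ι) (W 0) (hW1 0) (fun _ => ⟨0, hK0pos⟩) (by simp)
      exact ⟨g', h1⟩)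
    (by
      intro n a ha
      obtain ⟨g', h1, h2⟩ := exists_color (W n) (W (n + 1)) (hW1 _) a ha
      exact ⟨g', h1, h2⟩)
    (by
      intro n b hb
      obtain ⟨g', h1, h2⟩ := exists_color (W (n + 1)) (W n) (hW1 _) b hb
      exact ⟨g', h1, fun i hi hi' => (h2 i hi' hi).symm⟩)
  have hconst : ∀ (n : ℤ) (d : ℕ) (i : ι), (∀ n', n ≤ n' → n' ≤ n + d → i ∈ W n') →
      g (n + d) i = g n i := by
    intro n d
    induction d with
    | zero => intro i _; simp
    | succ d ih =>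
      intro i hi
      have h1 := ih i (fun n' h1 h2 => hi n' h1 (by push_cast; omega))
      have h2 := hg2 (n + d) i (hi _ (by omega) (by push_cast; omega))
        (hi _ (by omega) (by push_cast; omega))
      have e : n + ((d + 1 : ℕ) : ℤ) = n + d + 1 := by push_cast; ring
      rw [e, h2, h1]
  let nn : X → ℤ := fun x => Int.log 2 (ρ x)
  have hnn : ∀ x, 0 < ρ x → (2 : ℝ) ^ (nn x) ≤ ρ x ∧ ρ x < 2 ^ (nn x + 1) := by
    intro x hx
    have h1 := Int.zpow_log_le_self (b := 2) one_lt_two hx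
    have h2 := Int.lt_zpow_succ_log_self (b := 2) one_lt_two (ρ x)
    exact ⟨by exact_mod_cast h1, by exact_mod_cast h2⟩
  have hlF : ∀ x, 0 < ρ x → ℓ x ∈ F (nn x) := fun x hx => hF2 _ x (hnn x hx).1 (hnn x hx).2
  let slot : X → Fin K0 := fun x => g (nn x) (ℓ x)
  let G : X → EuclideanSpace ℝ (Fin K0 × Fin k) := fun x => slotEmb (slot x) (f x)
  have hG : ∀ x, ‖G x‖ = ‖f x‖ := fun x => slotEmb_norm _ _
  have hDc : 4 * D ≤ 4 * D / c := by
    rw [le_div_iff₀ hc]
    nlinarith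
  have hDc' : 0 < D / c := by positivity
  -- the main estimate for `nn x ≤ nn y`
  have main : ∀ x y : X, 0 < ρ x → 0 < ρ y → nn x ≤ nn y →
      1 / 4 * dist x y ≤ ‖G x - G y‖ ∧ ‖G x - G y‖ ≤ 4 * D / c * dist x y := by
    intro x y hx hy hxy
    have hd0 : 0 ≤ dist x y := dist_nonneg
    obtain ⟨d, hd⟩ : ∃ d : ℕ, nn y = nn x + d := ⟨(nn y - nn x).toNat, by omega⟩
    rcases le_or_gt d L with hdL | hdL
    · have hiW : ∀ n', nn x ≤ n' → n' ≤ nn x + d → ℓ x ∈ W n' := by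
        intro n' h1 h2
        exact hFW n' (nn x) (by omega) (by omega) _ (hlF x hx)
      have hgx : g (nn y) (ℓ x) = g (nn x) (ℓ x) := by
        rw [hd]; exact hconst _ _ _ hiW
      by_cases hl : ℓ x = ℓ y
      · have hs : slot x = slot y := by
          change g (nn x) (ℓ x) = g (nn y) (ℓ y)
          rw [← hgx, hl]
        have h1 : ‖G x - G y‖ = ‖f x - f y‖ := by
          change ‖slotEmb (slot x) (f x) - slotEmb (slot y) (f y)‖ = _
          rw [hs, slotEmb_sub, slotEmb_norm]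
        obtain ⟨h2, h3⟩ := hf2 x y hl
        rw [h1]
        refine ⟨by linarith, h3.trans ?_⟩
        have : D ≤ 4 * D / c := by linarith
        exact mul_le_mul_of_nonneg_right this hd0
      · have hyW : ℓ y ∈ W (nn y) := hFW _ _ (by omega) (by omega) _ (hlF y hy)
        have hxW : ℓ x ∈ W (nn y) := hiW _ hxy (by omega)
        have hs : slot x ≠ slot y := by
          intro h
          change g (nn x) (ℓ x) = g (nn y) (ℓ y) at h
          rw [← hgx] at h
          exact hl (hg1 (nn y) hxW hyW h)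
        have h1 : ‖G x - G y‖ ^ 2 = ‖f x‖ ^ 2 + ‖f y‖ ^ 2 := slotEmb_ne hs _ _
        have hx1 : ‖f x‖ ≤ ‖G x - G y‖ := by
          refine abs_le_of_sq_le_sq' ?_ (norm_nonneg _) |>.2
          rw [h1]; nlinarith [sq_nonneg ‖f y‖]
        have hy1 : ‖f y‖ ≤ ‖G x - G y‖ := by
          refine abs_le_of_sq_le_sq' ?_ (norm_nonneg _) |>.2
          rw [h1]; nlinarith [sq_nonneg ‖f x‖]
        have h2 := hup x y
        have h3 := hsep x y hx hy hl
        have h4 : ‖G x - G y‖ ≤ ‖f x‖ + ‖f y‖ := by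
          have := norm_sub_le (G x) (G y)
          rwa [hG, hG] at this
        constructor
        · have := (hf1 x).1
          have := (hf1 y).1
          linarith
        · have h5 : ‖f x‖ + ‖f y‖ ≤ 2 * D * max (ρ x) (ρ y) := by
            have h6 := (hf1 x).2
            have h7 := (hf1 y).2
            have h8 : D * ρ x ≤ D * max (ρ x) (ρ y) := mul_le_mul_of_nonneg_left (le_max_left _ _) (by linarith)
            have h9 : D * ρ y ≤ D * max (ρ x) (ρ y) := mul_le_mul_of_nonneg_left (le_max_right _ _) (by linarith)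
            linarith
          have h6 : 2 * D * max (ρ x) (ρ y) ≤ 2 * D / c * dist x y := by
            have : 2 * D * max (ρ x) (ρ y) = 2 * D / c * (c * max (ρ x) (ρ y)) := by field_simp
            rw [this]
            exact mul_le_mul_of_nonneg_left h3 (by positivity)
          have h7 : 2 * D / c * dist x y ≤ 4 * D / c * dist x y := by
            refine mul_le_mul_of_nonneg_right ?_ hd0
            have : 2 * D / c = 2 * (D / c) := by ring
            have : 4 * D / c = 4 * (D / c) := by ring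
            linarith
          linarith
    · -- far scales
      have h1 : 2 * D * ρ x < ρ y := by
        have h2 := (hnn x hx).2
        have h3 := (hnn y hy).1
        have h4 : (2 : ℝ) ^ (nn x + 1) * 2 ^ L ≤ 2 ^ (nn y) := by
          rw [← zpow_natCast, ← zpow_add₀ (by norm_num)]
          exact zpow_le_zpow_right₀ (by norm_num) (by omega)
        have h5 : (0 : ℝ) < 2 ^ (nn x + 1) := by positivity
        calc 2 * D * ρ x ≤ 2 * D * 2 ^ (nn x + 1) := mul_le_mul_of_nonneg_left h2.le (by linarith)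
          _ < 2 ^ L * 2 ^ (nn x + 1) := mul_lt_mul_of_pos_right hL h5
          _ = 2 ^ (nn x + 1) * 2 ^ L := mul_comm _ _
          _ ≤ ρ y := h4.trans h3
      have hDx : ρ x ≤ D * ρ x := le_mul_of_one_le_left hx.le hD
      have h2 : ‖f y‖ - ‖f x‖ ≤ ‖G x - G y‖ := by
        have := norm_sub_norm_le (G y) (G x)
        rw [hG, hG, norm_sub_rev] at this
        exact this
      have h3 : ‖G x - G y‖ ≤ ‖f x‖ + ‖f y‖ := by
        have := norm_sub_le (G x) (G y)
        rwa [hG, hG] at this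
      have h4 := hup x y
      have h5 := hlip y x
      rw [dist_comm y x] at h5
      have hfx := hf1 x
      have hfy := hf1 y
      constructor
      · linarith [hfx.2, hfy.1]
      · have h6 : ‖f x‖ + ‖f y‖ ≤ 2 * D * ρ y := by
          have : D * ρ x ≤ D * ρ y := mul_le_mul_of_nonneg_left (by linarith) (by linarith)
          linarith [hfx.2, hfy.2]
        have h7 : ρ y ≤ 2 * dist x y := by linarith
        have h8 : 2 * D * ρ y ≤ 4 * D * dist x y := by
          have := mul_le_mul_of_nonneg_left h7 (by linarith : (0:ℝ) ≤ 2 * D)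
          linarith
        have h9 : 4 * D * dist x y ≤ 4 * D / c * dist x y := mul_le_mul_of_nonneg_right hDc hd0
        linarith
  -- the general estimate
  have main2 : ∀ x y : X, 1 / 4 * dist x y ≤ ‖G x - G y‖ ∧ ‖G x - G y‖ ≤ 4 * D / c * dist x y := by
    have key : ∀ x y : X, ρ x = 0 → 1 / 4 * dist x y ≤ ‖G x - G y‖ ∧
        ‖G x - G y‖ ≤ 4 * D / c * dist x y := by
      intro x y hx
      have hfx : ‖f x‖ = 0 := le_antisymm (by have := (hf1 x).2; rw [hx, mul_zero] at this; exact this) (norm_nonneg _)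
      have hGx : G x = 0 := by rw [← norm_eq_zero, hG, hfx]
      have h1 : ‖G x - G y‖ = ‖f y‖ := by rw [hGx, zero_sub, norm_neg, hG]
      have h2 := hup x y
      have h3 := hlip y x
      rw [dist_comm y x, hx] at h3
      rw [hx] at h2
      have h4 : dist x y = ρ y := by linarith
      rw [h1, h4]
      refine ⟨by linarith [(hf1 y).1, hρ0 y], (hf1 y).2.trans ?_⟩
      exact mul_le_mul_of_nonneg_right (by linarith) (hρ0 y)
    intro x y
    rcases (hρ0 x).eq_or_lt with hx | hx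
    · exact key x y hx.symm
    rcases (hρ0 y).eq_or_lt with hy | hy
    · have := key y x hy.symm
      rwa [dist_comm y x, norm_sub_rev] at this
    rcases le_total (nn x) (nn y) with h | h
    · exact main x y hx hy h
    · have := main y x hy hx h
      rwa [dist_comm y x, norm_sub_rev] at this
  let Φ := LinearIsometryEquiv.piLpCongrLeft 2 ℝ ℝ (finProdFinEquiv (m := K0) (n := k))
  refine ⟨fun x => Φ (G x), 1 / 4, by norm_num, fun x y => ?_⟩
  have h1 : ‖Φ (G x) - Φ (G y)‖ = ‖G x - G y‖ := by rw [← map_sub, LinearIsometryEquiv.norm_map]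
  rw [h1]
  obtain ⟨h2, h3⟩ := main2 x y
  refine ⟨h2, ?_⟩
  have : 16 * D / c * (1 / 4) = 4 * D / c := by ring
  rw [this]
  exact h3

end Vale.Agent.P208
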