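import Mathlib
import Vale.Agent.P208.Basic

/-! P208: sets which are `k`-dimensional in every dyadic annulus around a point. -/

namespace Vale.Agent.P208

open Metric Finset Module

variable {H : Type*} [NormedAddCommGroup H] [InnerProductSpace ℝ H]

lemma exists_isometry (W : Submodule ℝ H) [FiniteDimensional ℝ W] {k : ℕ} (hk : finrank ℝ W ≤ k) :
    Nonempty (W →ₗᵢ[ℝ] EuclideanSpace ℝ (Fin k)) := by
  let b := stdOrthonormalBasis ℝ W
  let w : Fin (finrank ℝ W) → EuclideanSpace ℝ (Fin k) := fun i => EuclideanSpace.single (Fin.castLE hk i) 1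
  have hw : Orthonormal ℝ w := by
    have h1 : Orthonormal ℝ (fun j : Fin k => EuclideanSpace.single j (1 : ℝ)) :=
      EuclideanSpace.orthonormal_single
    exact h1.comp _ (Fin.castLE_injective hk)
  let T : W →ₗ[ℝ] EuclideanSpace ℝ (Fin k) := b.toBasis.constr ℝ w
  have hT : Orthonormal ℝ (T ∘ b.toBasis) := by
    have : T ∘ b.toBasis = w := by
      ext i : 1
      simp [T]
    rw [this]; exact hw
  exact ⟨T.isometryOfOrthonormal (v := b.toBasis) (by simpa using b.orthonormal) hT⟩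

/-- extension of a linear map which is isometric on `U` -/
lemma exists_ext {U W : Submodule ℝ H} [FiniteDimensional ℝ U] [FiniteDimensional ℝ W] (hUW : U ≤ W)
    {k : ℕ} (hk : finrank ℝ W ≤ k) (Φ : H →ₗ[ℝ] EuclideanSpace ℝ (Fin k))
    (hΦ : ∀ v ∈ U, ‖Φ v‖ = ‖v‖) :
    ∃ Ψ : H →ₗ[ℝ] EuclideanSpace ℝ (Fin k), (∀ v ∈ W, ‖Ψ v‖ = ‖v‖) ∧ ∀ v ∈ U, Ψ v = Φ v := by
  obtain ⟨φ⟩ := exists_isometry W hk
  let inc : U →ₗᵢ[ℝ] W := ⟨Submodule.inclusion hUW, fun v => rfl⟩
  let j : U →ₗᵢ[ℝ] EuclideanSpace ℝ (Fin k) := φ.comp inc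
  let e := j.equivRange
  let ΦU : U →ₗᵢ[ℝ] EuclideanSpace ℝ (Fin k) := ⟨Φ ∘ₗ U.subtype, fun v => hΦ v v.2⟩
  let L := ΦU.comp e.symm.toLinearIsometry
  let Ψ : H →ₗ[ℝ] EuclideanSpace ℝ (Fin k) :=
    L.extend.toLinearMap ∘ₗ φ.toLinearMap ∘ₗ (W.orthogonalProjectionOnto : H →L[ℝ] W).toLinearMap
  have hproj : ∀ v (hv : v ∈ W), W.orthogonalProjectionOnto v = ⟨v, hv⟩ := by
    intro v hv
    exact Submodule.orthogonalProjectionOnto_mem_subspace_eq_self (K := W) ⟨v, hv⟩
  refine ⟨Ψ, ?_, ?_⟩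
  · intro v hv
    have : Ψ v = L.extend (φ (W.orthogonalProjectionOnto v)) := rfl
    rw [this, LinearIsometry.norm_map, LinearIsometry.norm_map, hproj v hv]
    rfl
  · intro v hv
    have h1 : Ψ v = L.extend (φ (W.orthogonalProjectionOnto v)) := rfl
    have h2 : φ (W.orthogonalProjectionOnto v) = (e ⟨v, hv⟩ : EuclideanSpace ℝ (Fin k)) := by
      rw [hproj v (hUW hv)]
      rfl
    rw [h1, h2, LinearIsometry.extend_apply]
    change ΦU (e.symm (e ⟨v, hv⟩)) = Φ v
    rw [LinearIsometryEquiv.symm_apply_apply]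
    rfl

theorem annular (k : ℕ) (X : Set H) (p : H) (V : ℤ → Submodule ℝ H)
    (hfin : ∀ n, FiniteDimensional ℝ (V n)) (hdim : ∀ n, finrank ℝ (V n) ≤ k)
    (hX : ∀ x ∈ X, ∀ n : ℤ, (2 : ℝ) ^ n ≤ ‖x - p‖ → ‖x - p‖ < 2 ^ (n + 1) → x - p ∈ V n) :
    Embeds (2 * k) 9 X := by
  have hfin2 : ∀ n m, FiniteDimensional ℝ (V n ⊔ V m : Submodule ℝ H) := fun n m => by
    have := hfin n; have := hfin m; infer_instance
  have hdim2 : ∀ n m, finrank ℝ (V n ⊔ V m : Submodule ℝ H) ≤ 2 * k := by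
    intro n m
    have := hfin n; have := hfin m
    have := Submodule.finrank_add_le_finrank_add_finrank (V n) (V m)
    have h1 := hdim n; have h2 := hdim m
    omega
  obtain ⟨g, hg1, hg2⟩ := exists_twoSided (α := H →ₗ[ℝ] EuclideanSpace ℝ (Fin (2 * k)))
    (fun n Φ => ∀ v ∈ V n ⊔ V (n + 1), ‖Φ v‖ = ‖v‖)
    (fun n Φ Ψ => ∀ v ∈ V (n + 1), Φ v = Ψ v)
    (by
      have := hfin2 0 (0 + 1)
      obtain ⟨Ψ, h1, _⟩ := exists_ext (bot_le : (⊥ : Submodule ℝ H) ≤ V 0 ⊔ V (0 + 1)) (hdim2 _ _)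
        (0 : H →ₗ[ℝ] EuclideanSpace ℝ (Fin (2 * k))) (by intro v hv; rw [Submodule.mem_bot] at hv; simp [hv])
      exact ⟨Ψ, h1⟩)
    (by
      intro n Φ hΦ
      have := hfin (n + 1)
      have := hfin2 (n + 1) (n + 1 + 1)
      obtain ⟨Ψ, h1, h2⟩ := exists_ext (le_sup_left : V (n + 1) ≤ V (n + 1) ⊔ V (n + 1 + 1)) (hdim2 _ _)
        Φ (fun v hv => hΦ v (Submodule.mem_sup_right hv))
      exact ⟨Ψ, h1, fun v hv => (h2 v hv).symm⟩)
    (by
      intro n Φ hΦ
      have := hfin (n + 1)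
      have := hfin2 n (n + 1)
      obtain ⟨Ψ, h1, h2⟩ := exists_ext (le_sup_right : V (n + 1) ≤ V n ⊔ V (n + 1)) (hdim2 _ _)
        Φ (fun v hv => hΦ v (Submodule.mem_sup_left hv))
      exact ⟨Ψ, h1, h2⟩)
  let nn : H → ℤ := fun x => Int.log 2 ‖x - p‖
  have hnn : ∀ x : H, 0 < ‖x - p‖ → (2 : ℝ) ^ (nn x) ≤ ‖x - p‖ ∧ ‖x - p‖ < 2 ^ (nn x + 1) := by
    intro x hx
    have h1 := Int.zpow_log_le_self (b := 2) one_lt_two hx
    have h2 := Int.lt_zpow_succ_log_self (b := 2) one_lt_two (‖x - p‖)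
    exact ⟨by exact_mod_cast h1, by exact_mod_cast h2⟩
  let f : X → EuclideanSpace ℝ (Fin (2 * k)) := fun x => g (nn x) (x - p)
  have hV : ∀ x : X, (x : H) - p ∈ V (nn x) := by
    intro x
    rcases (norm_nonneg ((x : H) - p)).eq_or_lt with h | h
    · rw [norm_eq_zero.1 h.symm]; exact Submodule.zero_mem _
    · exact hX x x.2 _ (hnn x h).1 (hnn x h).2
  have hf : ∀ x : X, ‖f x‖ = ‖(x : H) - p‖ := fun x => hg1 _ _ (Submodule.mem_sup_left (hV x))
  have main : ∀ x y : X, 0 < ‖(x : H) - p‖ → 0 < ‖(y : H) - p‖ → nn x ≤ nn y →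
      1 / 3 * dist x y ≤ ‖f x - f y‖ ∧ ‖f x - f y‖ ≤ 3 * dist x y := by
    intro x y hx hy hxy
    have hdd : dist x y = ‖((x : H) - p) - (y - p)‖ := by
      rw [Subtype.dist_eq, dist_eq_norm]; congr 1; abel
    have hd0 : 0 ≤ dist x y := dist_nonneg
    rcases le_or_gt (nn y) (nn x + 1) with h | h
    · have h1 : f x - f y = g (nn x) (((x : H) - p) - (y - p)) := by
        rw [map_sub]
        congr 1
        rcases hxy.eq_or_lt with h2 | h2
        · change g (nn y) (y - p) = g (nn x) (y - p)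
          rw [h2]
        · have h3 : nn y = nn x + 1 := by omega
          change g (nn y) (y - p) = g (nn x) (y - p)
          have h4 := hg2 (nn x) ((y : H) - p) (by rw [← h3]; exact hV y)
          rw [h3, h4]
      have h2 : ‖f x - f y‖ = dist x y := by
        rw [h1, hdd]
        refine hg1 (nn x) _ (Submodule.sub_mem _ (Submodule.mem_sup_left (hV x)) ?_)
        rcases hxy.eq_or_lt with h2 | h2
        · exact Submodule.mem_sup_left (by rw [h2]; exact hV y)
        · have h3 : nn y = nn x + 1 := by omega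
          exact Submodule.mem_sup_right (by rw [← h3]; exact hV y)
      rw [h2]
      constructor <;> linarith
    · have h1 : 2 * ‖(x : H) - p‖ < ‖(y : H) - p‖ := by
        have h2 := (hnn x hx).2
        have h3 := (hnn y hy).1
        have h4 : (2 : ℝ) * 2 ^ (nn x + 1) ≤ 2 ^ (nn y) := by
          rw [← zpow_one_add₀ (by norm_num)]
          exact zpow_le_zpow_right₀ (by norm_num) (by omega)
        linarith
      have h2 := norm_sub_norm_le (f y) (f x)
      rw [norm_sub_rev, hf, hf] at h2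
      have h3 := norm_sub_le (f x) (f y)
      rw [hf, hf] at h3
      have h4 := norm_sub_norm_le ((y : H) - p) (x - p)
      rw [norm_sub_rev ((y : H) - p) ((x : H) - p), ← hdd] at h4
      have h5 := norm_sub_le ((x : H) - p) (y - p)
      rw [← hdd] at h5
      constructor <;> linarith
  have key : ∀ x y : X, ‖(x : H) - p‖ = 0 →
      1 / 3 * dist x y ≤ ‖f x - f y‖ ∧ ‖f x - f y‖ ≤ 3 * dist x y := by
    intro x y hx
    have h1 : f x = 0 := by rw [← norm_eq_zero, hf, hx]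
    have h2 : dist x y = ‖(y : H) - p‖ := by
      rw [Subtype.dist_eq, dist_eq_norm, sub_eq_zero.1 (norm_eq_zero.1 hx), norm_sub_rev]
    rw [h1, zero_sub, norm_neg, hf, h2]
    have := norm_nonneg ((y : H) - p)
    constructor <;> linarith
  refine ⟨f, 1 / 3, by norm_num, fun x y => ?_⟩
  have hmain : 1 / 3 * dist x y ≤ ‖f x - f y‖ ∧ ‖f x - f y‖ ≤ 3 * dist x y := by
    rcases (norm_nonneg ((x : H) - p)).eq_or_lt with hx | hx
    · exact key x y hx.symm
    rcases (norm_nonneg ((y : H) - p)).eq_or_lt with hy | hy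
    · have := key y x hy.symm
      rwa [dist_comm y x, norm_sub_rev] at this
    rcases le_total (nn x) (nn y) with h | h
    · exact main x y hx hy h
    · have := main y x hy hx h
      rwa [dist_comm y x, norm_sub_rev] at this
  refine ⟨hmain.1, ?_⟩
  have : (9 : ℝ) * (1 / 3) = 3 := by norm_num
  rw [this]
  exact hmain.2

end Vale.Agent.P208
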