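import Mathlib
import Vale.Agent.P208.Core
import Vale.Agent.P208.Lin

/-! P208: wedges and cones. -/

namespace Vale.Agent.P208

open Metric Finset Module

theorem wedge (k N : ℕ) (D c : ℝ) (hc : 0 < c) : ∃ (K : ℕ) (D' : ℝ), ∀ (X : Type*) [MetricSpace X]
    (ι : Type*) (p : X) (ℓ : X → ι), Doubling N X →
    (∀ x y, x ≠ p → y ≠ p → ℓ x ≠ ℓ y → c * max (dist x p) (dist y p) ≤ dist x y) →
    (∀ i, Embeds k D {x : X // x = p ∨ ℓ x = i}) → Embeds K D' X := by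
  obtain ⟨K, D', h⟩ := core k N (max D 1) (min c 1) (le_max_right _ _) (lt_min hc one_pos) (min_le_right _ _)
  refine ⟨K, D', ?_⟩
  intro X _ ι p ℓ hN hsep hemb
  choose f a ha hf using hemb
  let F : X → EuclideanSpace ℝ (Fin k) := fun x =>
    (a (ℓ x))⁻¹ • (f (ℓ x) ⟨x, Or.inr rfl⟩ - f (ℓ x) ⟨p, Or.inl rfl⟩)
  have hF : ∀ (i : ι) (x : X) (hx : ℓ x = i),
      F x = (a i)⁻¹ • (f i ⟨x, Or.inr hx⟩ - f i ⟨p, Or.inl rfl⟩) := by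
    intro i x hx
    subst hx
    rfl
  have hest : ∀ (i : ι) (u v : {x : X // x = p ∨ ℓ x = i}),
      dist u v ≤ ‖(a i)⁻¹ • (f i u - f i v)‖ ∧ ‖(a i)⁻¹ • (f i u - f i v)‖ ≤ max D 1 * dist u v := by
    intro i u v
    obtain ⟨h1, h2⟩ := hf i u v
    have hai := ha i
    rw [norm_smul, Real.norm_of_nonneg (inv_nonneg.2 hai.le), inv_mul_eq_div]
    constructor
    · rw [le_div_iff₀ hai]; linarith
    · rw [div_le_iff₀ hai]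
      have h3 : D * (a i * dist u v) ≤ max D 1 * (a i * dist u v) :=
        mul_le_mul_of_nonneg_right (le_max_left _ _) (by positivity)
      nlinarith
  refine h X ι (fun x => dist x p) ℓ F hN (fun x => dist_nonneg) (fun x y => dist_triangle_right x y p)
    (fun x y => dist_triangle x y p) ?_ ?_ ?_
  · intro x
    exact hest (ℓ x) ⟨x, Or.inr rfl⟩ ⟨p, Or.inl rfl⟩
  · intro x y hxy
    have h1 : F x - F y = (a (ℓ x))⁻¹ • (f (ℓ x) ⟨x, Or.inr rfl⟩ - f (ℓ x) ⟨y, Or.inr hxy.symm⟩) := by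
      rw [hF (ℓ x) x rfl, hF (ℓ x) y hxy.symm, ← smul_sub, sub_sub_sub_cancel_right]
    rw [h1]
    exact hest (ℓ x) ⟨x, Or.inr rfl⟩ ⟨y, Or.inr hxy.symm⟩
  · intro x y hx hy hxy
    refine le_trans ?_ (hsep x y (dist_pos.1 hx) (dist_pos.1 hy) hxy)
    exact mul_le_mul_of_nonneg_right (min_le_left _ _) (le_max_of_le_left dist_nonneg)

theorem cone (k N : ℕ) (c : ℝ) (hc0 : 0 ≤ c) (hc1 : c < 1) : ∃ (K : ℕ) (D' : ℝ), ∀ (H : Type*)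
    [NormedAddCommGroup H] [InnerProductSpace ℝ H] (X : Set H) (p : H) (𝒱 : Set (Submodule ℝ H)),
    (∀ V ∈ 𝒱, FiniteDimensional ℝ V ∧ finrank ℝ V ≤ k) →
    (∀ V ∈ 𝒱, ∀ W ∈ 𝒱, V ≠ W → ∀ v ∈ V, ∀ w ∈ W, |inner ℝ v w| ≤ c * (‖v‖ * ‖w‖)) →
    (∀ x ∈ X, ∃ V ∈ 𝒱, x - p ∈ V) → Doubling N X → Embeds K D' X := by
  have hs0 : 0 < Real.sqrt (1 - c) := Real.sqrt_pos.2 (by linarith)
  have hs1 : Real.sqrt (1 - c) ≤ 1 := Real.sqrt_le_one.2 (by linarith)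
  obtain ⟨K, D', h⟩ := core k N 1 (Real.sqrt (1 - c)) le_rfl hs0 hs1
  refine ⟨K, D', ?_⟩
  intro H _ _ X p 𝒱 hfin hang hX hN
  choose V hV hxV using fun x : X => hX x x.2
  have hiso : ∀ W : 𝒱, Nonempty ((W : Submodule ℝ H) →ₗᵢ[ℝ] EuclideanSpace ℝ (Fin k)) := by
    intro W
    have := (hfin W W.2).1
    exact exists_isometry _ (hfin W W.2).2
  let φ : ∀ W : 𝒱, (W : Submodule ℝ H) →ₗᵢ[ℝ] EuclideanSpace ℝ (Fin k) := fun W => (hiso W).some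
  let ℓ : X → 𝒱 := fun x => ⟨V x, hV x⟩
  let f : X → EuclideanSpace ℝ (Fin k) := fun x => φ (ℓ x) ⟨(x : H) - p, hxV x⟩
  have hf : ∀ (W : 𝒱) (x : X) (hx : ℓ x = W), ∃ hm : (x : H) - p ∈ (W : Submodule ℝ H),
      f x = φ W ⟨(x : H) - p, hm⟩ := by
    intro W x hx
    subst hx
    exact ⟨hxV x, rfl⟩
  have hd : ∀ x y : X, dist x y = ‖((x : H) - p) - (y - p)‖ := by
    intro x y
    rw [Subtype.dist_eq, dist_eq_norm]; congr 1; abel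
  refine h X 𝒱 (fun x => ‖(x : H) - p‖) ℓ f hN (fun x => norm_nonneg _) ?_ ?_ ?_ ?_ ?_
  · intro x y
    rw [hd]; exact norm_sub_le _ _
  · intro x y
    rw [hd]
    have := norm_sub_norm_le ((x : H) - p) (y - p)
    linarith
  · intro x
    have : ‖f x‖ = ‖(x : H) - p‖ := (φ (ℓ x)).norm_map _
    rw [this, one_mul]
    exact ⟨le_rfl, le_rfl⟩
  · intro x y hxy
    obtain ⟨m1, h1⟩ := hf (ℓ x) x rfl
    obtain ⟨m2, h2⟩ := hf (ℓ x) y hxy.symm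
    have h3 : ‖f x - f y‖ = dist x y := by
      rw [h1, h2, ← map_sub, LinearIsometry.norm_map, hd]
      rfl
    rw [h3, one_mul]
    exact ⟨le_rfl, le_rfl⟩
  · intro x y hx hy hxy
    have hne : V x ≠ V y := fun h => hxy (Subtype.ext h)
    have h1 := hang (V x) (hV x) (V y) (hV y) hne _ (hxV x) _ (hxV y)
    set u : H := (x : H) - p
    set v : H := (y : H) - p
    have h2 : ‖u - v‖ ^ 2 = ‖u‖ ^ 2 - 2 * inner ℝ u v + ‖v‖ ^ 2 := norm_sub_sq_real u v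
    have h3 : inner ℝ u v ≤ c * (‖u‖ * ‖v‖) := (le_abs_self _).trans h1
    have h4 : 2 * (‖u‖ * ‖v‖) ≤ ‖u‖ ^ 2 + ‖v‖ ^ 2 := by nlinarith [sq_nonneg (‖u‖ - ‖v‖)]
    have h5 : (1 - c) * (‖u‖ ^ 2 + ‖v‖ ^ 2) ≤ ‖u - v‖ ^ 2 := by
      rw [h2]; nlinarith
    have h6 : max ‖u‖ ‖v‖ ^ 2 ≤ ‖u‖ ^ 2 + ‖v‖ ^ 2 := by
      rcases max_cases ‖u‖ ‖v‖ with ⟨h, _⟩ | ⟨h, _⟩ <;> rw [h] <;> nlinarith [sq_nonneg ‖u‖, sq_nonneg ‖v‖]
    have h7 : (Real.sqrt (1 - c) * max ‖u‖ ‖v‖) ^ 2 ≤ ‖u - v‖ ^ 2 := by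
      rw [mul_pow, Real.sq_sqrt (by linarith)]
      refine le_trans (mul_le_mul_of_nonneg_left h6 (by linarith)) h5
    rw [hd]
    exact abs_le_of_sq_le_sq' h7 (norm_nonneg _) |>.2

end Vale.Agent.P208
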